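import Mathlib
import Crest.Prelude.Def_PolyominoGame

/-!
# S0047 (Snaky): format-independent game layer  (helper85)

`Win d M B`: Maker to move, Maker owns the cells `M`, Breaker owns the cells `B`; Maker can
force a copy of Snaky among his cells with at most `d` further claims (all of them legal).

Main result: `win_imp_statement : Win 21 ∅ ∅ → (the S0047 statement)`.
-/

set_option autoImplicit false

namespace Crest.Agent.S0047.Helper85

open Crest.CombinatoricsR.PolyominoGame

/-- A cell of the board. -/
abbrev Cell := ℤ × ℤ

/-- Maker to move with cells `M`, Breaker has cells `B`: Maker forces a copy within `d` more claims. -/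
inductive Win : ℕ → Finset Cell → Finset Cell → Prop
  | done (d : ℕ) (M B : Finset Cell) (h : ContainsCopy (M : Set Cell)) : Win d M B
  | step (d : ℕ) (M B : Finset Cell) (m : Cell) (hmM : m ∉ M) (hmB : m ∉ B)
      (h : ∀ r : Cell, r ∉ M → r ≠ m → r ∉ B → Win d (insert m M) (insert r B)) :
      Win (d + 1) M B

theorem containsCopy_mono {X Y : Set Cell} (h : X ⊆ Y) (hX : ContainsCopy X) :
    ContainsCopy Y := by
  obtain ⟨t, e1, e2, h1, h2, h3⟩ := hX
  exact ⟨t, e1, e2, h1, h2, h3.imp (fun h' p hp => h (h' p hp)) (fun h' p hp => h (h' p hp))⟩

theorem exists_fresh (A : Finset Cell) : ∃ c : Cell, c ∉ A :=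
  Infinite.exists_notMem_finset A

theorem Win.mono_d {d d' : ℕ} {M B : Finset Cell} (h : Win d M B) (hd : d ≤ d') :
    Win d' M B := by
  induction h generalizing d' with
  | done d M B h => exact Win.done _ _ _ h
  | step d M B m hmM hmB h ih =>
    obtain ⟨e, rfl⟩ : ∃ e, d' = e + 1 := ⟨d' - 1, by omega⟩
    exact Win.step e M B m hmM hmB (fun r h1 h2 h3 => ih r h1 h2 h3 (by omega))

/-- More Maker cells never hurt. -/
theorem Win.mono_M {d : ℕ} {M B : Finset Cell} (h : Win d M B) :
    ∀ M' : Finset Cell, M ⊆ M' → Disjoint M' B → Win d M' B := by
  induction h with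
  | done d M B h =>
    intro M' hsub _
    exact Win.done _ _ _ (containsCopy_mono (by exact_mod_cast hsub) h)
  | step d M B m hmM hmB h ih =>
    intro M' hsub hdisj
    by_cases hm : m ∈ M'
    · obtain ⟨m', hm'⟩ := exists_fresh (M' ∪ B)
      have hm'M : m' ∉ M' := fun h => hm' (Finset.mem_union_left _ h)
      have hm'B : m' ∉ B := fun h => hm' (Finset.mem_union_right _ h)
      refine Win.step d M' B m' hm'M hm'B (fun r hrM hrm hrB => ?_)
      have hrM0 : r ∉ M := fun h => hrM (hsub h)
      have hrm0 : r ≠ m := fun h => hrM (h ▸ hm)
      refine ih r hrM0 hrm0 hrB (insert m' M') ?_ ?_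
      · intro x hx
        rcases Finset.mem_insert.1 hx with rfl | hx
        · exact Finset.mem_insert_of_mem hm
        · exact Finset.mem_insert_of_mem (hsub hx)
      · rw [Finset.disjoint_left]
        intro x hx hx'
        rcases Finset.mem_insert.1 hx with rfl | hx
        · rcases Finset.mem_insert.1 hx' with h | h
          · exact hrm h.symm
          · exact hm'B h
        · rcases Finset.mem_insert.1 hx' with rfl | h
          · exact hrM hx
          · exact Finset.disjoint_left.1 hdisj hx h
    · refine Win.step d M' B m hm hmB (fun r hrM hrm hrB => ?_)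
      refine ih r (fun h => hrM (hsub h)) hrm hrB (insert m M')
        (Finset.insert_subset_insert _ hsub) ?_
      rw [Finset.disjoint_left]
      intro x hx hx'
      rcases Finset.mem_insert.1 hx with rfl | hx
      · rcases Finset.mem_insert.1 hx' with h | h
        · exact hrm h.symm
        · exact hmB h
      · rcases Finset.mem_insert.1 hx' with rfl | h
        · exact hrM hx
        · exact Finset.disjoint_left.1 hdisj hx h

theorem Win.exists_move {d : ℕ} {M B : Finset Cell} (h : Win d M B)
    (hn : ¬ ContainsCopy (M : Set Cell)) :
    ∃ m : Cell, m ∉ M ∧ m ∉ B ∧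
      ∀ r : Cell, r ∉ M → r ≠ m → r ∉ B → Win (d - 1) (insert m M) (insert r B) := by
  cases h with
  | done _ _ _ h => exact absurd h hn
  | step d _ _ m hmM hmB h => exact ⟨m, hmM, hmB, fun r h1 h2 h3 => by simpa using h r h1 h2 h3⟩

theorem Win.zero {M B : Finset Cell} (h : Win 0 M B) : ContainsCopy (M : Set Cell) := by
  cases h with
  | done _ _ _ h => exact h

/-- A cell outside `A`. -/
noncomputable def fresh (A : Finset Cell) : Cell := (exists_fresh A).choose

theorem fresh_spec (A : Finset Cell) : fresh A ∉ A := (exists_fresh A).choose_spec

open Classical in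
/-- Maker's move in the position `(M, B)`. -/
noncomputable def move (M B : Finset Cell) : Cell :=
  if h : ¬ ContainsCopy (M : Set Cell) ∧ ∃ d, Win d M B then
    (Win.exists_move (Nat.find_spec h.2) h.1).choose
  else fresh (M ∪ B)

theorem move_notMem_M (M B : Finset Cell) : move M B ∉ M := by
  classical
  unfold move
  split_ifs with h
  · exact (Win.exists_move (Nat.find_spec h.2) h.1).choose_spec.1
  · exact fun hh => fresh_spec (M ∪ B) (Finset.mem_union_left _ hh)

theorem move_notMem_B (M B : Finset Cell) : move M B ∉ B := by
  classical
  unfold move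
  split_ifs with h
  · exact (Win.exists_move (Nat.find_spec h.2) h.1).choose_spec.2.1
  · exact fun hh => fresh_spec (M ∪ B) (Finset.mem_union_right _ hh)

theorem move_spec {d : ℕ} {M B : Finset Cell} (hw : Win d M B)
    (hn : ¬ ContainsCopy (M : Set Cell)) (r : Cell) (hrM : r ∉ M) (hrm : r ≠ move M B)
    (hrB : r ∉ B) : Win (d - 1) (insert (move M B) M) (insert r B) := by
  classical
  have h : ¬ ContainsCopy (M : Set Cell) ∧ ∃ d, Win d M B := ⟨hn, d, hw⟩
  have hle : Nat.find h.2 ≤ d := Nat.find_min' h.2 hw
  have hmove : move M B = (Win.exists_move (Nat.find_spec h.2) h.1).choose := by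
    unfold move; rw [dif_pos h]
  have hs := (Win.exists_move (Nat.find_spec h.2) h.1).choose_spec.2.2
  rw [hmove] at hrm ⊢
  exact (hs r hrM hrm hrB).mono_d (by omega)

/-- The position after a list of Breaker replies, when Maker follows `move`. -/
noncomputable def st (l : List Cell) : Finset Cell × Finset Cell :=
  l.foldl (fun s r => (insert (move s.1 s.2) s.1, insert r s.2)) (∅, ∅)

/-- Maker's policy. -/
noncomputable def policy (l : List Cell) : Cell := move (st l).1 (st l).2

theorem st_snoc (l : List Cell) (r : Cell) :
    st (l ++ [r]) = (insert (policy l) (st l).1, insert r (st l).2) := by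
  simp [st, policy, List.foldl_append]

theorem range_map_succ (b : ℕ → Cell) (k : ℕ) :
    (List.range (k + 1)).map b = (List.range k).map b ++ [b k] := by
  simp [List.range_succ]

theorem st_M (b : ℕ → Cell) (k : ℕ) :
    (st ((List.range k).map b)).1 = (Finset.range k).image (makerClaim policy b) := by
  induction k with
  | zero => simp [st]
  | succ k ih =>
    rw [range_map_succ, st_snoc, Finset.range_add_one, Finset.image_insert]
    simp only [ih]
    rfl

theorem st_B (b : ℕ → Cell) (k : ℕ) :
    (st ((List.range k).map b)).2 = (Finset.range k).image b := by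
  induction k with
  | zero => simp [st]
  | succ k ih =>
    rw [range_map_succ, st_snoc, Finset.range_add_one, Finset.image_insert]
    simp only [ih]

theorem claim_eq (b : ℕ → Cell) (k : ℕ) :
    makerClaim policy b k =
      move (st ((List.range k).map b)).1 (st ((List.range k).map b)).2 := rfl

/-- **Main theorem of the game layer**: a forced win within 21 claims from the empty board
gives the S0047 statement. -/
theorem win_imp_statement (hw : Win 21 ∅ ∅) :
    ∃ σ : List (ℤ × ℤ) → ℤ × ℤ, ∀ b : ℕ → ℤ × ℤ,
      (∀ k : ℕ, k < 20 →
        (∀ j : ℕ, j ≤ k → b k ≠ Crest.CombinatoricsR.PolyominoGame.makerClaim σ b j) ∧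
        (∀ j : ℕ, j < k → b k ≠ b j)) →
      (∀ k : ℕ, k ≤ 20 →
        (∀ j : ℕ, j < k → Crest.CombinatoricsR.PolyominoGame.makerClaim σ b k ≠
          Crest.CombinatoricsR.PolyominoGame.makerClaim σ b j) ∧
        (∀ j : ℕ, j < k → Crest.CombinatoricsR.PolyominoGame.makerClaim σ b k ≠ b j)) ∧
      Crest.CombinatoricsR.PolyominoGame.ContainsCopy
        {c | ∃ j : ℕ, j ≤ 20 ∧ c = Crest.CombinatoricsR.PolyominoGame.makerClaim σ b j} := by
  refine ⟨policy, fun b hb => ⟨fun k _ => ⟨fun j hj heq => ?_, fun j hj heq => ?_⟩, ?_⟩⟩
  · -- Maker's claims are pairwise distinct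
    have h1 := move_notMem_M (st ((List.range k).map b)).1 (st ((List.range k).map b)).2
    rw [← claim_eq, st_M] at h1
    exact h1 (Finset.mem_image.2 ⟨j, Finset.mem_range.2 hj, heq.symm⟩)
  · -- Maker never claims a Breaker cell
    have h1 := move_notMem_B (st ((List.range k).map b)).1 (st ((List.range k).map b)).2
    rw [← claim_eq, st_B] at h1
    exact h1 (Finset.mem_image.2 ⟨j, Finset.mem_range.2 hj, heq.symm⟩)
  · -- the invariant
    have inv : ∀ k : ℕ, k ≤ 20 →
        ContainsCopy ((st ((List.range k).map b)).1 : Set Cell) ∨
          Win (21 - k) (st ((List.range k).map b)).1 (st ((List.range k).map b)).2 := by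
      intro k
      induction k with
      | zero => intro _; right; simpa [st] using hw
      | succ k ih =>
        intro hk
        have hk' : k < 20 := by omega
        rcases ih (by omega) with hc | hwin
        · left
          refine containsCopy_mono ?_ hc
          rw [range_map_succ, st_snoc]
          exact_mod_cast Finset.subset_insert _ _
        · by_cases hc : ContainsCopy ((st ((List.range k).map b)).1 : Set Cell)
          · left
            refine containsCopy_mono ?_ hc
            rw [range_map_succ, st_snoc]
            exact_mod_cast Finset.subset_insert _ _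
          · right
            rw [range_map_succ, st_snoc]
            have hbk := hb k hk'
            have h1 : b k ∉ (st ((List.range k).map b)).1 := by
              rw [st_M]
              intro hmem
              obtain ⟨j, hj, hje⟩ := Finset.mem_image.1 hmem
              exact hbk.1 j (le_of_lt (Finset.mem_range.1 hj)) hje.symm
            have h2 : b k ≠ move (st ((List.range k).map b)).1 (st ((List.range k).map b)).2 := by
              rw [← claim_eq]
              exact hbk.1 k le_rfl
            have h3 : b k ∉ (st ((List.range k).map b)).2 := by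
              rw [st_B]
              intro hmem
              obtain ⟨j, hj, hje⟩ := Finset.mem_image.1 hmem
              exact hbk.2 j (Finset.mem_range.1 hj) hje.symm
            have := move_spec hwin hc (b k) h1 h2 h3
            have e : 21 - (k + 1) = 21 - k - 1 := by omega
            rw [e]
            exact this
    -- the last claim
    have hfin : ContainsCopy ((insert (policy ((List.range 20).map b))
        (st ((List.range 20).map b)).1 : Finset Cell) : Set Cell) := by
      rcases inv 20 le_rfl with hc | hwin
      · refine containsCopy_mono ?_ hc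
        exact_mod_cast Finset.subset_insert _ _
      · by_cases hc : ContainsCopy ((st ((List.range 20).map b)).1 : Set Cell)
        · refine containsCopy_mono ?_ hc
          exact_mod_cast Finset.subset_insert _ _
        · set M := (st ((List.range 20).map b)).1 with hM
          set B := (st ((List.range 20).map b)).2 with hB
          obtain ⟨r, hr⟩ := exists_fresh (insert (move M B) (M ∪ B))
          have hr1 : r ≠ move M B := fun h => hr (h ▸ Finset.mem_insert_self _ _)
          have hr2 : r ∉ M := fun h =>
            hr (Finset.mem_insert_of_mem (Finset.mem_union_left _ h))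
          have hr3 : r ∉ B := fun h =>
            hr (Finset.mem_insert_of_mem (Finset.mem_union_right _ h))
          have := move_spec hwin hc r hr2 hr1 hr3
          exact Win.zero this
    refine containsCopy_mono ?_ hfin
    intro c hcmem
    have hcmem' : c ∈ insert (policy ((List.range 20).map b)) (st ((List.range 20).map b)).1 := by
      exact_mod_cast hcmem
    rcases Finset.mem_insert.1 hcmem' with rfl | hcm
    · exact ⟨20, le_rfl, rfl⟩
    · rw [st_M] at hcm
      obtain ⟨j, hj, hje⟩ := Finset.mem_image.1 hcm
      exact ⟨j, le_of_lt (Finset.mem_range.1 hj), hje.symm⟩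

end Crest.Agent.S0047.Helper85
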