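import Mathlib
import Crest.Prelude.Def_PolyominoGame
import Crest.Agent.Lib.S0047.Helper85Game

/-!
# S0047 (Snaky): kernel-checkable pattern certificates  (helper85)

Cells of the window are numbered `i ↦ (i % W, i / W)`; a set of cells is a natural number
(bit mask).  A *pattern* `P = (S, Z, d, w)` claims: whenever Maker owns the cells `S`, no cell of the
zone `Z` is Breaker's and Maker is to move, Maker forces a Snaky within `d` further claims — and
the same for every translate by `(dx, dy)` with `dx + w ≤ W` (bit shift by `dx + W * dy`).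

* `termCheck`  : `S` contains an explicit copy of Snaky (columns `< w`).
* `stepCheck`  : Maker plays the cell with index `m`; the listed child patterns (translated) need
  only Maker cells from `S ∪ {m}`, have zones inside `Z`, need at most `d - 1` claims, and no
  legal Breaker reply lies in all child zones.
-/

set_option autoImplicit false

namespace Crest.Agent.S0047.Helper85

open Crest.CombinatoricsR.PolyominoGame

/-- Width of the bit board. -/
def W : ℕ := 32

/-- The cell with index `i`. -/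
def cellOf (i : ℕ) : Cell := (((i % W : ℕ) : ℤ), ((i / W : ℕ) : ℤ))

theorem cellOf_injective : Function.Injective cellOf := by
  intro i j h
  simp only [cellOf, Prod.mk.injEq, Nat.cast_inj] at h
  rw [← Nat.div_add_mod i W, ← Nat.div_add_mod j W, h.1, h.2]

/-- The set of bit positions of `n`. -/
def bits (n : ℕ) : Finset ℕ := (Finset.range (n + 1)).filter (fun i => n.testBit i = true)

theorem mem_bits {n i : ℕ} : i ∈ bits n ↔ n.testBit i = true := by
  simp only [bits, Finset.mem_filter, Finset.mem_range, and_iff_right_iff_imp]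
  intro h
  have := Nat.ge_two_pow_of_testBit h
  have h2 : i < 2 ^ i := Nat.lt_two_pow_self
  omega

/-- The cells of the mask `n`, translated by the bit shift `s`. -/
def cellsAt (s n : ℕ) : Finset Cell := (bits n).image (fun i => cellOf (i + s))

theorem mem_cellsAt {s n : ℕ} {c : Cell} :
    c ∈ cellsAt s n ↔ ∃ i, n.testBit i = true ∧ cellOf (i + s) = c := by
  simp [cellsAt, mem_bits]

theorem cellOf_mem_cellsAt {s n i : ℕ} : cellOf (i + s) ∈ cellsAt s n ↔ n.testBit i = true := by
  rw [mem_cellsAt]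
  constructor
  · rintro ⟨j, hj, hje⟩
    have := cellOf_injective hje
    have : j = i := by omega
    exact this ▸ hj
  · exact fun h => ⟨i, h, rfl⟩

theorem cellsAt_zero (s : ℕ) : cellsAt s 0 = ∅ := by
  ext c; simp [mem_cellsAt]

theorem cellsAt_subset_of_and {s a b : ℕ} (h : a &&& b = a) : cellsAt s a ⊆ cellsAt s b := by
  intro c hc
  obtain ⟨i, hi, rfl⟩ := mem_cellsAt.1 hc
  refine mem_cellsAt.2 ⟨i, ?_, rfl⟩
  have := Nat.testBit_and a b i
  rw [h, hi] at this
  simpa using this.symm

theorem cellsAt_or (s a b : ℕ) : cellsAt s (a ||| b) = cellsAt s a ∪ cellsAt s b := by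
  ext c
  simp only [mem_cellsAt, Finset.mem_union, Nat.testBit_or, Bool.or_eq_true]
  constructor
  · rintro ⟨i, hi | hi, rfl⟩
    · exact Or.inl ⟨i, hi, rfl⟩
    · exact Or.inr ⟨i, hi, rfl⟩
  · rintro (⟨i, hi, rfl⟩ | ⟨i, hi, rfl⟩)
    · exact ⟨i, Or.inl hi, rfl⟩
    · exact ⟨i, Or.inr hi, rfl⟩

theorem cellsAt_two_pow (s m : ℕ) : cellsAt s (2 ^ m) = {cellOf (m + s)} := by
  ext c
  simp only [mem_cellsAt, Nat.testBit_two_pow, decide_eq_true_eq, Finset.mem_singleton]
  constructor
  · rintro ⟨i, rfl, rfl⟩; rfl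
  · rintro rfl; exact ⟨m, rfl, rfl⟩

theorem cellsAt_shiftLeft (s t n : ℕ) : cellsAt s (n <<< t) = cellsAt (s + t) n := by
  ext c
  simp only [mem_cellsAt, Nat.testBit_shiftLeft, Bool.and_eq_true, decide_eq_true_eq]
  constructor
  · rintro ⟨i, ⟨hi, hb⟩, rfl⟩
    exact ⟨i - t, hb, by congr 1; omega⟩
  · rintro ⟨i, hb, rfl⟩
    exact ⟨i + t, ⟨by omega, by simpa using hb⟩, by congr 1; omega⟩

theorem and_eq_of_beq {a b : ℕ} (h : Nat.beq (Nat.land a b) a = true) : a &&& b = a :=
  Nat.eq_of_beq_eq_true h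

/-- A pattern: needed Maker cells `S`, zone `Z`, number `d` of claims, width bound `w`. -/
structure Pat where
  S : ℕ
  Z : ℕ
  d : ℕ
  w : ℕ

/-- The claim made by a pattern. -/
def PatOK (P : Pat) : Prop :=
  ∀ dx dy : ℕ, dx + P.w ≤ W → ∀ B : Finset Cell,
    Disjoint (cellsAt (dx + W * dy) P.Z) B → Win P.d (cellsAt (dx + W * dy) P.S) B

/-- A reference to a proved pattern, translated by `(dx, dy)`. -/
structure CRef where
  p : Pat
  dx : ℕ
  dy : ℕ
  ok : PatOK p

/-- The same proved pattern, translated by `(dx, dy)`. -/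
def CRef.shift (c : CRef) (dx dy : ℕ) : CRef := ⟨c.p, dx, dy, c.ok⟩

/-- The bit shift of a reference. -/
def CRef.sh (c : CRef) : ℕ := c.dx + W * c.dy

/-- The explicit list of the cells of Snaky. -/
def snakyL : List (ℤ × ℤ) := [(0, 0), (1, 0), (2, 0), (3, 0), (3, 1), (4, 1)]

theorem mem_snakyL {p : ℤ × ℤ} (hp : p ∈ snaky) : p ∈ snakyL := by
  simp only [snaky, Finset.mem_insert, Finset.mem_singleton] at hp
  simp only [snakyL, List.mem_cons, List.not_mem_nil, or_false]
  exact hp

/-- Is the cell `q` (integer coordinates, column `< w`) in the mask `S`? -/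
def memW (S w : ℕ) (q : ℤ × ℤ) : Bool :=
  decide (0 ≤ q.1) && decide (q.1 < (w : ℤ)) && decide (0 ≤ q.2) &&
    Nat.testBit S (q.1.toNat + W * q.2.toNat)

/-- The image of a Snaky cell under the signed coordinate permutation and translation. -/
def place (tx ty e1 e2 : ℤ) (sw : Bool) (p : ℤ × ℤ) : ℤ × ℤ :=
  if sw then (tx + e1 * p.2, ty + e2 * p.1) else (tx + e1 * p.1, ty + e2 * p.2)

/-- Terminal check: `S` contains the copy of Snaky given by `(tx, ty)`, signs `e1, e2`, swap `sw`. -/
def termCheck (P : Pat) (tx ty e1 e2 : ℤ) (sw : Bool) : Bool :=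
  (decide (e1 = 1) || decide (e1 = -1)) && (decide (e2 = 1) || decide (e2 = -1)) &&
    Nat.ble P.w W && snakyL.all (fun p => memW P.S P.w (place tx ty e1 e2 sw p))

theorem memW_sound {S w : ℕ} {q : ℤ × ℤ} (h : memW S w q = true) (dx dy : ℕ)
    (hdx : dx + w ≤ W) : (q.1 + dx, q.2 + dy) ∈ cellsAt (dx + W * dy) S := by
  simp only [memW, Bool.and_eq_true, decide_eq_true_eq] at h
  obtain ⟨⟨⟨h1, h2⟩, h3⟩, h4⟩ := h
  have e : cellOf (q.1.toNat + W * q.2.toNat + (dx + W * dy)) = (q.1 + dx, q.2 + dy) := by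
    have hlt : q.1.toNat + dx < W := by omega
    have e1 : q.1.toNat + W * q.2.toNat + (dx + W * dy) =
        (q.1.toNat + dx) + W * (q.2.toNat + dy) := by ring
    have hWpos : 0 < W := by omega
    simp only [cellOf, e1, Prod.mk.injEq]
    constructor
    · rw [Nat.add_mul_mod_self_left, Nat.mod_eq_of_lt hlt]
      push_cast
      rw [Int.toNat_of_nonneg h1]
    · rw [Nat.add_mul_div_left _ _ hWpos, Nat.div_eq_of_lt hlt]
      push_cast
      rw [Int.toNat_of_nonneg h3]
      ring
  rw [← e]
  exact cellOf_mem_cellsAt.2 h4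

theorem term_sound (P : Pat) (tx ty e1 e2 : ℤ) (sw : Bool)
    (h : termCheck P tx ty e1 e2 sw = true) : PatOK P := by
  intro dx dy hdx B _
  simp only [termCheck, Bool.and_eq_true, Bool.or_eq_true, decide_eq_true_eq, List.all_eq_true,
    Nat.ble_eq] at h
  obtain ⟨⟨⟨he1, he2⟩, _⟩, hall⟩ := h
  refine Win.done _ _ _ ?_
  refine ⟨(tx + dx, ty + dy), e1, e2, he1, he2, ?_⟩
  cases sw with
  | false =>
    left
    intro p hp
    have := memW_sound (hall p (mem_snakyL hp)) dx dy hdx
    simp only [place, Bool.false_eq_true, if_false] at this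
    have e : ((tx + dx, ty + dy).1 + e1 * p.1, (tx + dx, ty + dy).2 + e2 * p.2) =
        (tx + e1 * p.1 + dx, ty + e2 * p.2 + dy) := by
      simp only [Prod.mk.injEq]; constructor <;> ring
    rw [e]
    exact_mod_cast this
  | true =>
    right
    intro p hp
    have := memW_sound (hall p (mem_snakyL hp)) dx dy hdx
    simp only [place, if_true] at this
    have e : ((tx + dx, ty + dy).1 + e1 * p.2, (tx + dx, ty + dy).2 + e2 * p.1) =
        (tx + e1 * p.2 + dx, ty + e2 * p.1 + dy) := by
      simp only [Prod.mk.injEq]; constructor <;> ring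
    rw [e]
    exact_mod_cast this

/-- Check of one child reference against the parent data `X = S ∪ {m}`, `Z`, `d`, `w`. -/
def childCheck (X Z d w : ℕ) (c : CRef) : Bool :=
  Nat.beq (Nat.land (Nat.shiftLeft c.p.S c.sh) X) (Nat.shiftLeft c.p.S c.sh) &&
    Nat.beq (Nat.land (Nat.shiftLeft c.p.Z c.sh) Z) (Nat.shiftLeft c.p.Z c.sh) &&
    Nat.ble (c.p.d + 1) d && Nat.ble (c.dx + c.p.w) w

/-- Intersection of the zones of the children with `a`. -/
def interZ (a : ℕ) (cs : List CRef) : ℕ :=
  cs.foldl (fun acc c => Nat.land acc (Nat.shiftLeft c.p.Z c.sh)) a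

/-- Step check: Maker plays bit `m`. -/
def stepCheck (P : Pat) (m : ℕ) (cs : List CRef) : Bool :=
  Nat.beq (Nat.land P.S P.Z) P.S && Nat.testBit P.Z m && !(Nat.testBit P.S m) &&
    !(cs.isEmpty) && cs.all (childCheck (Nat.lor P.S (2 ^ m)) P.Z P.d P.w) &&
    Nat.beq (Nat.land (interZ P.Z cs) (Nat.lor P.S (2 ^ m))) (interZ P.Z cs)

theorem interZ_testBit (a : ℕ) (cs : List CRef) (i : ℕ) :
    (interZ a cs).testBit i =
      (a.testBit i && cs.all (fun c => (c.p.Z <<< c.sh).testBit i)) := by
  induction cs generalizing a with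
  | nil => simp [interZ]
  | cons c cs ih =>
    have : interZ a (c :: cs) = interZ (a &&& (c.p.Z <<< c.sh)) cs := rfl
    rw [this, ih, List.all_cons, Nat.testBit_and, Bool.and_assoc]

theorem step_sound (P : Pat) (m : ℕ) (cs : List CRef) (h : stepCheck P m cs = true) :
    PatOK P := by
  simp only [stepCheck, Bool.and_eq_true, Bool.not_eq_true',
    List.all_eq_true, List.isEmpty_eq_false_iff] at h
  obtain ⟨⟨⟨⟨⟨hSZ, hmZ⟩, hmS⟩, hne⟩, hch⟩, hI⟩ := h
  have hSZ' : P.S &&& P.Z = P.S := and_eq_of_beq hSZ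
  have hI' : interZ P.Z cs &&& (P.S ||| 2 ^ m) = interZ P.Z cs := and_eq_of_beq hI
  intro dx dy hdx B hB
  set s := dx + W * dy with hs
  -- the parent data
  have hSsub : cellsAt s P.S ⊆ cellsAt s P.Z := cellsAt_subset_of_and hSZ'
  have hSB : Disjoint (cellsAt s P.S) B := Finset.disjoint_of_subset_left hSsub hB
  have hmZ' : cellOf (m + s) ∈ cellsAt s P.Z := cellOf_mem_cellsAt.2 hmZ
  have hmB : cellOf (m + s) ∉ B := fun hh => Finset.disjoint_left.1 hB hmZ' hh
  have hmS' : cellOf (m + s) ∉ cellsAt s P.S := by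
    rw [cellOf_mem_cellsAt, hmS]; simp
  have hX : cellsAt s (P.S ||| 2 ^ m) = insert (cellOf (m + s)) (cellsAt s P.S) := by
    rw [cellsAt_or, cellsAt_two_pow, Finset.union_comm]; rfl
  -- the depth is positive
  obtain ⟨c0, hc0⟩ := List.exists_mem_of_ne_nil cs hne
  have hd0 : c0.p.d + 1 ≤ P.d := by
    have := hch c0 hc0
    simp only [childCheck, Bool.and_eq_true, Nat.ble_eq] at this
    exact this.1.2
  obtain ⟨d', hd'⟩ : ∃ d', P.d = d' + 1 := ⟨P.d - 1, by omega⟩
  rw [hd']
  refine Win.step d' _ B (cellOf (m + s)) hmS' hmB (fun r hrS hrm hrB => ?_)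
  -- find a child whose zone misses `r`
  have hex : ∃ c ∈ cs, r ∉ cellsAt s (c.p.Z <<< c.sh) := by
    by_cases hrZ : r ∈ cellsAt s P.Z
    · obtain ⟨i, hi, rfl⟩ := mem_cellsAt.1 hrZ
      have hXi : (P.S ||| 2 ^ m).testBit i = false := by
        by_contra hcon
        have hcon' : (P.S ||| 2 ^ m).testBit i = true := by
          cases hb : (P.S ||| 2 ^ m).testBit i
          · exact absurd hb hcon
          · rfl
        have hmem : cellOf (i + s) ∈ cellsAt s (P.S ||| 2 ^ m) := cellOf_mem_cellsAt.2 hcon'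
        rw [hX] at hmem
        rcases Finset.mem_insert.1 hmem with h1 | h1
        · exact hrm h1
        · exact hrS h1
      have hIi : (interZ P.Z cs).testBit i = false := by
        have := Nat.testBit_and (interZ P.Z cs) (P.S ||| 2 ^ m) i
        rw [hI', hXi] at this
        simpa using this
      rw [interZ_testBit, hi] at hIi
      simp only [Bool.true_and] at hIi
      have : ¬ (∀ c ∈ cs, (c.p.Z <<< c.sh).testBit i = true) := by
        intro hall
        have : cs.all (fun c => (c.p.Z <<< c.sh).testBit i) = true := List.all_eq_true.2 hall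
        rw [this] at hIi
        exact Bool.noConfusion hIi
      obtain ⟨c, hc, hcb⟩ : ∃ c ∈ cs, ¬ (c.p.Z <<< c.sh).testBit i = true := by
        by_contra hcon
        exact this (fun c hc => by
          by_contra hcb
          exact hcon ⟨c, hc, hcb⟩)
      exact ⟨c, hc, fun hmem => hcb (cellOf_mem_cellsAt.1 hmem)⟩
    · refine ⟨c0, hc0, fun hmem => hrZ ?_⟩
      have := hch c0 hc0
      simp only [childCheck, Bool.and_eq_true] at this
      exact cellsAt_subset_of_and (and_eq_of_beq this.1.1.2) hmem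
  obtain ⟨c, hc, hrc⟩ := hex
  have hcc := hch c hc
  simp only [childCheck, Bool.and_eq_true, Nat.ble_eq] at hcc
  obtain ⟨⟨⟨hcS, hcZ⟩, hcd⟩, hcw⟩ := hcc
  have hcS' : cellsAt s (c.p.S <<< c.sh) ⊆ cellsAt s (P.S ||| 2 ^ m) :=
    cellsAt_subset_of_and (and_eq_of_beq hcS)
  have hcZ' : cellsAt s (c.p.Z <<< c.sh) ⊆ cellsAt s P.Z :=
    cellsAt_subset_of_and (and_eq_of_beq hcZ)
  rw [cellsAt_shiftLeft] at hcS' hcZ' hrc
  -- the child's shift
  have hsh : s + c.sh = (dx + c.dx) + W * (dy + c.dy) := by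
    simp only [hs, CRef.sh]; ring
  rw [hsh] at hcS' hcZ' hrc
  have hwin := c.ok (dx + c.dx) (dy + c.dy) (by omega) (insert r B) (by
    rw [Finset.disjoint_left]
    intro x hx hx'
    rcases Finset.mem_insert.1 hx' with rfl | hx'
    · exact hrc hx
    · exact Finset.disjoint_left.1 hB (hcZ' hx) hx')
  rw [hX] at hcS'
  have hwin2 := hwin.mono_M (insert (cellOf (m + s)) (cellsAt s P.S)) hcS' (by
    rw [Finset.disjoint_left]
    intro x hx hx'
    rcases Finset.mem_insert.1 hx with rfl | hx
    · rcases Finset.mem_insert.1 hx' with h1 | h1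
      · exact hrm h1.symm
      · exact hmB h1
    · rcases Finset.mem_insert.1 hx' with rfl | h1
      · exact hrS hx
      · exact Finset.disjoint_left.1 hSB hx h1)
  exact hwin2.mono_d (by omega)

/-- The root pattern gives the forced win from the empty board. -/
theorem root_sound (P : Pat) (h : PatOK P) (hS : P.S = 0) (hd : P.d ≤ 21) (hw : P.w ≤ W) :
    Win 21 ∅ ∅ := by
  have := h 0 0 (by omega) ∅ (Finset.disjoint_empty_right _)
  rw [hS, cellsAt_zero] at this
  exact this.mono_d hd

end Crest.Agent.S0047.Helper85
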