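import Mathlib
import Crest.Prelude.Def_PolyominoGame
import Crest.Agent.Lib.S0047.Helper85Check

/-!
# S0047 (Snaky): symmetric copies of proved patterns  (helper85)

The game is invariant under the eight signed coordinate permutations composed with translations.
`sym_sound`: from a proved pattern `P` we get the pattern `P'` whose masks are the images of the
masks of `P` under `(x, y) ↦ (± a + tx, ± b + ty)`, `(a, b) = (y, x)` or `(x, y)`; the images are
recomputed by the kernel (`symMask`), so only the few patterns that are really reused in another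
orientation pay for it.
-/

set_option autoImplicit false

namespace Crest.Agent.S0047.Helper85

open Crest.CombinatoricsR.PolyominoGame

/-- `Win` is invariant under a bijection of the board that preserves copies of Snaky. -/
theorem Win.map_equiv (φ : Cell ≃ Cell)
    (hφ : ∀ X : Set Cell, ContainsCopy X → ContainsCopy (φ '' X))
    {d : ℕ} {M B : Finset Cell} (h : Win d M B) :
    Win d (M.map φ.toEmbedding) (B.map φ.toEmbedding) := by
  induction h with
  | done d M B h =>
    refine Win.done _ _ _ ?_
    have := hφ _ h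
    simpa [Finset.coe_map] using this
  | step d M B m hmM hmB h ih =>
    refine Win.step d _ _ (φ m) ?_ ?_ (fun r hrM hrm hrB => ?_)
    · simpa using hmM
    · simpa using hmB
    · have h1 : φ.symm r ∉ M := by
        intro hh
        apply hrM
        rw [Finset.mem_map]
        exact ⟨φ.symm r, hh, by simp⟩
      have h2 : φ.symm r ≠ m := by
        intro hh
        apply hrm
        rw [← hh]
        simp
      have h3 : φ.symm r ∉ B := by
        intro hh
        apply hrB
        rw [Finset.mem_map]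
        exact ⟨φ.symm r, hh, by simp⟩
      have := ih (φ.symm r) h1 h2 h3
      simpa [Finset.map_insert] using this

/-- The sign of a flip. -/
def sgn (f : Bool) : ℤ := if f then -1 else 1

theorem sgn_mul_self (f : Bool) : sgn f * sgn f = 1 := by
  cases f <;> simp [sgn]

theorem sgn_cases (f : Bool) : sgn f = 1 ∨ sgn f = -1 := by
  cases f <;> simp [sgn]

/-- The affine symmetry `(x, y) ↦ (± a + tx, ± b + ty)`. -/
def symFun (sw fx fy : Bool) (tx ty : ℤ) (c : Cell) : Cell :=
  if sw then (sgn fx * c.2 + tx, sgn fy * c.1 + ty) else (sgn fx * c.1 + tx, sgn fy * c.2 + ty)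

/-- Its inverse. -/
def symInv (sw fx fy : Bool) (tx ty : ℤ) (c : Cell) : Cell :=
  if sw then (sgn fy * (c.2 - ty), sgn fx * (c.1 - tx))
  else (sgn fx * (c.1 - tx), sgn fy * (c.2 - ty))

/-- The affine symmetry as a bijection. -/
def symEquiv (sw fx fy : Bool) (tx ty : ℤ) : Cell ≃ Cell where
  toFun := symFun sw fx fy tx ty
  invFun := symInv sw fx fy tx ty
  left_inv := by
    intro c
    have hx := sgn_mul_self fx
    have hy := sgn_mul_self fy
    cases sw
    · simp only [symFun, symInv, Bool.false_eq_true, if_false]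
      ext
      · show sgn fx * (sgn fx * c.1 + tx - tx) = c.1
        linear_combination c.1 * hx
      · show sgn fy * (sgn fy * c.2 + ty - ty) = c.2
        linear_combination c.2 * hy
    · simp only [symFun, symInv, if_true]
      ext
      · show sgn fy * (sgn fy * c.1 + ty - ty) = c.1
        linear_combination c.1 * hy
      · show sgn fx * (sgn fx * c.2 + tx - tx) = c.2
        linear_combination c.2 * hx
  right_inv := by
    intro c
    have hx := sgn_mul_self fx
    have hy := sgn_mul_self fy
    cases sw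
    · simp only [symFun, symInv, Bool.false_eq_true, if_false]
      ext
      · show sgn fx * (sgn fx * (c.1 - tx)) + tx = c.1
        linear_combination (c.1 - tx) * hx
      · show sgn fy * (sgn fy * (c.2 - ty)) + ty = c.2
        linear_combination (c.2 - ty) * hy
    · simp only [symFun, symInv, if_true]
      ext
      · show sgn fx * (sgn fx * (c.1 - tx)) + tx = c.1
        linear_combination (c.1 - tx) * hx
      · show sgn fy * (sgn fy * (c.2 - ty)) + ty = c.2
        linear_combination (c.2 - ty) * hy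

theorem symEquiv_apply (sw fx fy : Bool) (tx ty : ℤ) (c : Cell) :
    symEquiv sw fx fy tx ty c = symFun sw fx fy tx ty c := rfl

theorem sgn_mul_cases (f : Bool) {e : ℤ} (he : e = 1 ∨ e = -1) :
    sgn f * e = 1 ∨ sgn f * e = -1 := by
  rcases he with rfl | rfl <;> cases f <;> simp [sgn]

/-- The affine symmetries preserve copies of Snaky. -/
theorem symEquiv_copy (sw fx fy : Bool) (tx ty : ℤ) (X : Set Cell) (h : ContainsCopy X) :
    ContainsCopy (symEquiv sw fx fy tx ty '' X) := by
  obtain ⟨t, e1, e2, he1, he2, hc⟩ := h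
  cases sw
  · refine ⟨(sgn fx * t.1 + tx, sgn fy * t.2 + ty), sgn fx * e1, sgn fy * e2,
      sgn_mul_cases fx he1, sgn_mul_cases fy he2, ?_⟩
    rcases hc with hc | hc
    · left
      intro p hp
      refine ⟨_, hc p hp, ?_⟩
      simp only [symEquiv_apply, symFun, Bool.false_eq_true, if_false, Prod.mk.injEq]
      constructor <;> ring
    · right
      intro p hp
      refine ⟨_, hc p hp, ?_⟩
      simp only [symEquiv_apply, symFun, Bool.false_eq_true, if_false, Prod.mk.injEq]
      constructor <;> ring
  · refine ⟨(sgn fx * t.2 + tx, sgn fy * t.1 + ty), sgn fx * e2, sgn fy * e1,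
      sgn_mul_cases fx he2, sgn_mul_cases fy he1, ?_⟩
    rcases hc with hc | hc
    · right
      intro p hp
      refine ⟨_, hc p hp, ?_⟩
      simp only [symEquiv_apply, symFun, if_true, Prod.mk.injEq]
      constructor <;> ring
    · left
      intro p hp
      refine ⟨_, hc p hp, ?_⟩
      simp only [symEquiv_apply, symFun, if_true, Prod.mk.injEq]
      constructor <;> ring

/-- Column of the image of bit `i`. -/
def symX (sw fx : Bool) (tx i : ℕ) : ℕ :=
  cond fx (tx - cond sw (i / W) (i % W)) (tx + cond sw (i / W) (i % W))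

/-- Row of the image of bit `i`. -/
def symY (sw fy : Bool) (ty i : ℕ) : ℕ :=
  cond fy (ty - cond sw (i % W) (i / W)) (ty + cond sw (i % W) (i / W))

/-- Index of the image of bit `i`. -/
def symIdx (sw fx fy : Bool) (tx ty i : ℕ) : ℕ :=
  symX sw fx tx i + W * symY sw fy ty i

/-- The image of bit `i` is computed without truncation and lies in a column `< w'`. -/
def symBitOK (sw fx fy : Bool) (tx ty w' i : ℕ) : Bool :=
  (!fx || Nat.ble (cond sw (i / W) (i % W)) tx) && (!fy || Nat.ble (cond sw (i % W) (i / W)) ty) &&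
    Nat.blt (symX sw fx tx i) w'

/-- Image of the bits `lo ≤ i < lo + 2 ^ k` of the mask `n`. -/
def symMask (sw fx fy : Bool) (tx ty n : ℕ) : ℕ → ℕ → ℕ
  | 0, lo => cond (n.testBit lo) (2 ^ symIdx sw fx fy tx ty lo) 0
  | k + 1, lo => Nat.lor (symMask sw fx fy tx ty n k lo) (symMask sw fx fy tx ty n k (lo + 2 ^ k))

/-- All bits `lo ≤ i < lo + 2 ^ k` of the mask `n` satisfy `symBitOK`. -/
def symValid (sw fx fy : Bool) (tx ty w' n : ℕ) : ℕ → ℕ → Bool
  | 0, lo => !(n.testBit lo) || symBitOK sw fx fy tx ty w' lo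
  | k + 1, lo => symValid sw fx fy tx ty w' n k lo && symValid sw fx fy tx ty w' n k (lo + 2 ^ k)

theorem symMask_testBit (sw fx fy : Bool) (tx ty n : ℕ) (k lo j : ℕ) :
    (symMask sw fx fy tx ty n k lo).testBit j = true ↔
      ∃ i, lo ≤ i ∧ i < lo + 2 ^ k ∧ n.testBit i = true ∧ symIdx sw fx fy tx ty i = j := by
  induction k generalizing lo with
  | zero =>
    simp only [symMask, pow_zero]
    constructor
    · intro h
      cases hb : n.testBit lo with
      | false => rw [hb] at h; simp at h
      | true =>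
        rw [hb] at h
        simp only [cond_true, Nat.testBit_two_pow, decide_eq_true_eq] at h
        exact ⟨lo, le_rfl, by omega, hb, h⟩
    · rintro ⟨i, h1, h2, h3, h4⟩
      have : i = lo := by omega
      subst this
      rw [h3]
      simp only [cond_true, Nat.testBit_two_pow, decide_eq_true_eq]
      exact h4
  | succ k ih =>
    have e : symMask sw fx fy tx ty n (k + 1) lo =
        symMask sw fx fy tx ty n k lo ||| symMask sw fx fy tx ty n k (lo + 2 ^ k) := rfl
    rw [e, Nat.testBit_or, Bool.or_eq_true, ih, ih]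
    constructor
    · rintro (⟨i, h1, h2, h3, h4⟩ | ⟨i, h1, h2, h3, h4⟩)
      · exact ⟨i, h1, by rw [pow_succ]; omega, h3, h4⟩
      · exact ⟨i, by omega, by rw [pow_succ]; omega, h3, h4⟩
    · rintro ⟨i, h1, h2, h3, h4⟩
      rw [pow_succ] at h2
      by_cases hi : i < lo + 2 ^ k
      · exact Or.inl ⟨i, h1, hi, h3, h4⟩
      · exact Or.inr ⟨i, by omega, by omega, h3, h4⟩

theorem symValid_spec (sw fx fy : Bool) (tx ty w' n : ℕ) (k lo : ℕ)
    (h : symValid sw fx fy tx ty w' n k lo = true) (i : ℕ) (h1 : lo ≤ i) (h2 : i < lo + 2 ^ k)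
    (h3 : n.testBit i = true) : symBitOK sw fx fy tx ty w' i = true := by
  induction k generalizing lo with
  | zero =>
    have : i = lo := by simp only [pow_zero] at h2; omega
    subst this
    simp only [symValid, h3, Bool.not_true, Bool.false_or] at h
    exact h
  | succ k ih =>
    simp only [symValid, Bool.and_eq_true] at h
    rw [pow_succ] at h2
    by_cases hi : i < lo + 2 ^ k
    · exact ih lo h.1 h1 hi
    · exact ih (lo + 2 ^ k) h.2 (by omega) (by omega)

/-- A mask below `2 ^ N` has all its bits below `N`. -/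
theorem lt_of_testBit_of_shiftRight {n N i : ℕ} (h : n >>> N = 0) (hi : n.testBit i = true) :
    i < N := by
  by_contra hcon
  have h1 : (n >>> N).testBit (i - N) = true := by
    rw [Nat.testBit_shiftRight]
    have : N + (i - N) = i := by omega
    rw [this]; exact hi
  rw [h] at h1
  simp at h1

/-- One coordinate of the image. -/
theorem symcoord (f : Bool) (t a d : ℕ) (h : f = false ∨ a ≤ t) :
    sgn f * (a : ℤ) + ((t : ℤ) + d) = ((cond f (t - a) (t + a) + d : ℕ) : ℤ) := by
  cases f
  · simp only [sgn, Bool.false_eq_true, if_false, cond_false]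
    push_cast; ring
  · have hle : a ≤ t := by
      rcases h with h | h
      · cases h
      · exact h
    simp only [sgn, if_true, cond_true]
    push_cast [Nat.cast_sub hle]; ring

/-- The image of a valid bit, as a cell. -/
theorem symFun_cellOf (sw fx fy : Bool) (tx ty w' i dx dy : ℕ)
    (h : symBitOK sw fx fy tx ty w' i = true) (hdx : dx + w' ≤ W) :
    symFun sw fx fy ((tx : ℤ) + dx) ((ty : ℤ) + dy) (cellOf (i + 0)) =
      cellOf (symIdx sw fx fy tx ty i + (dx + W * dy)) := by
  simp only [symBitOK, Bool.and_eq_true, Bool.or_eq_true, Bool.not_eq_true', Nat.ble_eq,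
    Nat.blt_eq] at h
  obtain ⟨⟨hx, hy⟩, hw⟩ := h
  have hWpos : 0 < W := by omega
  have hlt : symX sw fx tx i + dx < W := by omega
  have e1 : symIdx sw fx fy tx ty i + (dx + W * dy) =
      (symX sw fx tx i + dx) + W * (symY sw fy ty i + dy) := by
    simp only [symIdx]; ring
  have hc : cellOf (symIdx sw fx fy tx ty i + (dx + W * dy)) =
      (((symX sw fx tx i + dx : ℕ) : ℤ), ((symY sw fy ty i + dy : ℕ) : ℤ)) := by
    simp only [cellOf, e1, Prod.mk.injEq]
    constructor
    · rw [Nat.add_mul_mod_self_left, Nat.mod_eq_of_lt hlt]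
    · rw [Nat.add_mul_div_left _ _ hWpos, Nat.div_eq_of_lt hlt]
      simp
  rw [hc]
  cases sw
  · simp only [cond_false] at hx hy
    simp only [cellOf, Nat.add_zero, symFun, Bool.false_eq_true, if_false, Prod.mk.injEq, symX,
      symY, cond_false]
    exact ⟨symcoord fx tx (i % W) dx hx, symcoord fy ty (i / W) dy hy⟩
  · simp only [cond_true] at hx hy
    simp only [cellOf, Nat.add_zero, symFun, if_true, Prod.mk.injEq, symX, symY, cond_true]
    exact ⟨symcoord fx tx (i / W) dx hx, symcoord fy ty (i % W) dy hy⟩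

/-- The cells of the image mask are the images of the cells. -/
theorem cellsAt_symMask (sw fx fy : Bool) (tx ty w' n k dx dy : ℕ) (hn : n >>> 2 ^ k = 0)
    (hv : symValid sw fx fy tx ty w' n k 0 = true) (hdx : dx + w' ≤ W) :
    cellsAt (dx + W * dy) (symMask sw fx fy tx ty n k 0) =
      (cellsAt 0 n).map (symEquiv sw fx fy ((tx : ℤ) + dx) ((ty : ℤ) + dy)).toEmbedding := by
  ext c
  rw [mem_cellsAt, Finset.mem_map]
  constructor
  · rintro ⟨j, hj, rfl⟩
    obtain ⟨i, h1, h2, h3, rfl⟩ := (symMask_testBit sw fx fy tx ty n k 0 j).1 hj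
    refine ⟨cellOf (i + 0), mem_cellsAt.2 ⟨i, h3, rfl⟩, ?_⟩
    have hok := symValid_spec sw fx fy tx ty w' n k 0 hv i h1 h2 h3
    exact symFun_cellOf sw fx fy tx ty w' i dx dy hok hdx
  · rintro ⟨c0, hc0, rfl⟩
    obtain ⟨i, hi, rfl⟩ := mem_cellsAt.1 hc0
    have hlt : i < 2 ^ k := lt_of_testBit_of_shiftRight hn hi
    have hok := symValid_spec sw fx fy tx ty w' n k 0 hv i (Nat.zero_le _) (by omega) hi
    refine ⟨symIdx sw fx fy tx ty i, ?_, ?_⟩
    · exact (symMask_testBit sw fx fy tx ty n k 0 _).2 ⟨i, Nat.zero_le _, by omega, hi, rfl⟩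
    · exact (symFun_cellOf sw fx fy tx ty w' i dx dy hok hdx).symm

theorem symValid_of_and (sw fx fy : Bool) (tx ty w' a b : ℕ) (hab : a &&& b = a) (k lo : ℕ)
    (h : symValid sw fx fy tx ty w' b k lo = true) : symValid sw fx fy tx ty w' a k lo = true := by
  induction k generalizing lo with
  | zero =>
    simp only [symValid, Bool.or_eq_true, Bool.not_eq_true'] at h ⊢
    rcases h with h | h
    · left
      have := Nat.testBit_and a b lo
      rw [hab, h] at this
      simpa using this
    · exact Or.inr h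
  | succ k ih =>
    simp only [symValid, Bool.and_eq_true] at h ⊢
    exact ⟨ih lo h.1, ih _ h.2⟩

theorem shiftRight_eq_zero_of_and {a b N : ℕ} (hab : a &&& b = a) (hb : b >>> N = 0) :
    a >>> N = 0 := by
  apply Nat.eq_of_testBit_eq
  intro i
  rw [Nat.testBit_shiftRight, Nat.zero_testBit]
  have h1 : (b >>> N).testBit i = false := by rw [hb]; simp
  rw [Nat.testBit_shiftRight] at h1
  have := Nat.testBit_and a b (N + i)
  rw [hab, h1] at this
  simpa using this

/-- Check that `P'` is the image of `P` under the symmetry `(sw, fx, fy, tx, ty)`;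
`k`: all bits of the zone of `P` are below `2 ^ k`. -/
def symCheck (P P' : Pat) (sw fx fy : Bool) (tx ty k : ℕ) : Bool :=
  Nat.ble P.w W && Nat.beq (Nat.land P.S P.Z) P.S && Nat.beq (Nat.shiftRight P.Z (2 ^ k)) 0 &&
    symValid sw fx fy tx ty P'.w P.Z k 0 &&
    Nat.beq (symMask sw fx fy tx ty P.S k 0) P'.S &&
    Nat.beq (symMask sw fx fy tx ty P.Z k 0) P'.Z && Nat.ble P.d P'.d

/-- A symmetric copy of a proved pattern is a proved pattern. -/
theorem sym_sound (c : CRef) (P' : Pat) (sw fx fy : Bool) (tx ty k : ℕ)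
    (h : symCheck c.p P' sw fx fy tx ty k = true) : PatOK P' := by
  simp only [symCheck, Bool.and_eq_true, Nat.ble_eq] at h
  obtain ⟨⟨⟨⟨⟨⟨hw, hSZ⟩, hZk⟩, hval⟩, hS⟩, hZ⟩, hd⟩ := h
  have hSZ' : c.p.S &&& c.p.Z = c.p.S := and_eq_of_beq hSZ
  have hZk' : c.p.Z >>> 2 ^ k = 0 := Nat.eq_of_beq_eq_true hZk
  have hS' : symMask sw fx fy tx ty c.p.S k 0 = P'.S := Nat.eq_of_beq_eq_true hS
  have hZ' : symMask sw fx fy tx ty c.p.Z k 0 = P'.Z := Nat.eq_of_beq_eq_true hZ
  have hSk : c.p.S >>> 2 ^ k = 0 := shiftRight_eq_zero_of_and hSZ' hZk'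
  have hvalS : symValid sw fx fy tx ty P'.w c.p.S k 0 = true :=
    symValid_of_and sw fx fy tx ty P'.w _ _ hSZ' k 0 hval
  intro dx dy hdx B hB
  set φ := symEquiv sw fx fy ((tx : ℤ) + dx) ((ty : ℤ) + dy) with hφ
  have eS : cellsAt (dx + W * dy) P'.S = (cellsAt 0 c.p.S).map φ.toEmbedding := by
    rw [← hS']; exact cellsAt_symMask sw fx fy tx ty P'.w _ k dx dy hSk hvalS hdx
  have eZ : cellsAt (dx + W * dy) P'.Z = (cellsAt 0 c.p.Z).map φ.toEmbedding := by
    rw [← hZ']; exact cellsAt_symMask sw fx fy tx ty P'.w _ k dx dy hZk' hval hdx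
  -- pull Breaker's cells back
  set B0 : Finset Cell := B.map φ.symm.toEmbedding with hB0
  have hBB : B0.map φ.toEmbedding = B := by
    ext x
    simp only [hB0, Finset.mem_map, Equiv.coe_toEmbedding]
    constructor
    · rintro ⟨y, ⟨z, hz, rfl⟩, rfl⟩
      simpa using hz
    · intro hx
      exact ⟨φ.symm x, ⟨x, hx, rfl⟩, by simp⟩
  have hdis : Disjoint (cellsAt (0 + W * 0) c.p.Z) B0 := by
    rw [Finset.disjoint_left]
    intro x hx hx'
    have hx0 : x ∈ cellsAt 0 c.p.Z := by simpa using hx
    have h1 : φ x ∈ cellsAt (dx + W * dy) P'.Z := by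
      rw [eZ, Finset.mem_map]
      exact ⟨x, hx0, rfl⟩
    have h2 : φ x ∈ B := by
      rw [← hBB, Finset.mem_map]
      exact ⟨x, hx', rfl⟩
    exact Finset.disjoint_left.1 hB h1 h2
  have hwin := c.ok 0 0 (by omega) B0 hdis
  have hwin2 := hwin.map_equiv φ (symEquiv_copy sw fx fy _ _)
  rw [hBB] at hwin2
  have e0 : cellsAt (0 + W * 0) c.p.S = cellsAt 0 c.p.S := by simp
  rw [e0, ← eS] at hwin2
  exact hwin2.mono_d hd

end Crest.Agent.S0047.Helper85
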